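import Mathlib

open Metric Set

namespace Vale.Agent.Results.P208.UniformFormEquivalent

/-- `X` is doubling with constant at most `L`: every closed ball of `X` (centre in `X`, radius `r`) is
covered by at most `L` closed balls of radius `r / 2` with centres in `X`. -/
def DoublingWith {E : Type*} [PseudoMetricSpace E] (X : Set E) (L : ℕ) : Prop :=
  ∀ x ∈ X, ∀ r : ℝ, 0 < r → ∃ F : Finset E, (F : Set E) ⊆ X ∧ F.card ≤ L ∧
    X ∩ closedBall x r ⊆ ⋃ y ∈ F, closedBall y (r / 2)

/-- `X` has a bi-Lipschitz embedding into `ℝ^k` with distortion at most `D`. -/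
def BiLipInto {E : Type*} [PseudoMetricSpace E] (X : Set E) (k : ℕ) (D : ℝ) : Prop :=
  ∃ (f : E → EuclideanSpace ℝ (Fin k)) (a : ℝ), 0 < a ∧ ∀ x ∈ X, ∀ y ∈ X,
    a * dist x y ≤ dist (f x) (f y) ∧ dist (f x) (f y) ≤ D * a * dist x y

theorem BiLipInto.mono {E : Type*} [PseudoMetricSpace E] {X : Set E} {k : ℕ} {D D' : ℝ}
    (h : BiLipInto X k D) (hD : D ≤ D') : BiLipInto X k D' := by
  obtain ⟨f, a, ha, hf⟩ := h
  refine ⟨f, a, ha, fun x hx y hy => ⟨(hf x hx y hy).1, (hf x hx y hy).2.trans ?_⟩⟩
  have : 0 ≤ a * dist x y := mul_nonneg ha.le dist_nonneg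
  calc D * a * dist x y = D * (a * dist x y) := by ring
    _ ≤ D' * (a * dist x y) := mul_le_mul_of_nonneg_right hD this
    _ = D' * a * dist x y := by ring

/-- A subset of an `L`-doubling set is `L^2`-doubling. -/
theorem DoublingWith.subset {E : Type*} [PseudoMetricSpace E] {X A : Set E} {L : ℕ}
    (hX : DoublingWith X L) (hA : A ⊆ X) : DoublingWith A (L * L) := by
  classical
  intro x hx r hr
  obtain ⟨F, hFX, hFc, hF⟩ := hX x (hA hx) r hr
  -- second level covers
  have h2 : ∀ y ∈ F, ∃ G : Finset E, (G : Set E) ⊆ X ∧ G.card ≤ L ∧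
      X ∩ closedBall y (r / 2) ⊆ ⋃ z ∈ G, closedBall z (r / 2 / 2) := by
    intro y hy
    exact hX y (hFX hy) (r / 2) (by positivity)
  choose! G hGX hGc hG using h2
  -- pick a witness in A for each second level center when possible
  let w : E → E := fun z => if h : (A ∩ closedBall z (r / 2 / 2)).Nonempty then h.some else z
  let I : Finset E := (F.biUnion G).filter (fun z => (A ∩ closedBall z (r / 2 / 2)).Nonempty)
  refine ⟨I.image w, ?_, ?_, ?_⟩
  · intro p hp
    simp only [Finset.coe_image, mem_image, Finset.mem_coe] at hp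
    obtain ⟨z, hz, rfl⟩ := hp
    have hz' := (Finset.mem_filter.mp hz).2
    simp only [w, dif_pos hz']
    exact hz'.some_mem.1
  · calc (I.image w).card ≤ I.card := Finset.card_image_le
      _ ≤ (F.biUnion G).card := Finset.card_filter_le _ _
      _ ≤ F.card * L := Finset.card_biUnion_le_card_mul _ _ _ (fun y hy => hGc y hy)
      _ ≤ L * L := Nat.mul_le_mul_right _ hFc
  · rintro p ⟨hpA, hpb⟩
    have hpX := hA hpA
    have h1 := hF ⟨hpX, hpb⟩
    simp only [mem_iUnion, exists_prop] at h1
    obtain ⟨y, hy, hpy⟩ := h1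
    have h3 := hG y hy ⟨hpX, hpy⟩
    simp only [mem_iUnion, exists_prop] at h3
    obtain ⟨z, hz, hpz⟩ := h3
    have hne : (A ∩ closedBall z (r / 2 / 2)).Nonempty := ⟨p, hpA, hpz⟩
    simp only [mem_iUnion, exists_prop]
    refine ⟨w z, Finset.mem_image.mpr ⟨z, Finset.mem_filter.mpr
      ⟨Finset.mem_biUnion.mpr ⟨y, hy, hz⟩, hne⟩, rfl⟩, ?_⟩
    simp only [w, dif_pos hne]
    have h4 := hne.some_mem.2
    rw [mem_closedBall] at h4 hpz ⊢
    have := dist_triangle_right p hne.some z
    linarith

/-- Compactness: if all finite subsets of `X` embed with uniform `k, D`, so does `X`. -/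
theorem biLip_of_finite {E : Type*} [PseudoMetricSpace E] {X : Set E} {k : ℕ} {D : ℝ}
    (h : ∀ F : Finset E, (F : Set E) ⊆ X → BiLipInto (F : Set E) k D) : BiLipInto X k D := by
  classical
  rcases X.eq_empty_or_nonempty with rfl | ⟨x₀, hx₀⟩
  · exact ⟨fun _ => 0, 1, one_pos, by simp⟩
  -- the compact product
  let R : E → ℝ := fun x => |D| * dist x x₀
  let S : Set (E → EuclideanSpace ℝ (Fin k)) := Set.pi univ (fun x => closedBall 0 (R x))
  have hS : IsCompact S := isCompact_univ_pi (fun x => isCompact_closedBall _ _)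
  let t : (X × X) → Set (E → EuclideanSpace ℝ (Fin k)) := fun p =>
    {g | dist (p.1 : E) p.2 ≤ dist (g p.1) (g p.2) ∧ dist (g p.1) (g p.2) ≤ D * dist (p.1 : E) p.2}
  have ht : ∀ p, IsClosed (t p) := by
    intro p
    have hc : Continuous fun g : E → EuclideanSpace ℝ (Fin k) => dist (g p.1) (g p.2) :=
      (continuous_apply _).dist (continuous_apply _)
    exact (isClosed_le continuous_const hc).inter (isClosed_le hc continuous_const)
  have hne : ∀ u : Finset (X × X), (S ∩ ⋂ p ∈ u, t p).Nonempty := by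
    intro u
    let F : Finset E := insert x₀ (u.image (fun p => (p.1 : E)) ∪ u.image (fun p => (p.2 : E)))
    have hF : (F : Set E) ⊆ X := by
      intro p hp
      simp only [F, Finset.coe_insert, Finset.coe_union, Finset.coe_image, mem_insert_iff,
        mem_union, mem_image, Finset.mem_coe] at hp
      rcases hp with rfl | ⟨q, _, rfl⟩ | ⟨q, _, rfl⟩
      · exact hx₀
      · exact q.1.2
      · exact q.2.2
    obtain ⟨f, a, ha, hf⟩ := h F hF
    have hx₀F : x₀ ∈ F := Finset.mem_insert_self _ _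
    let g : E → EuclideanSpace ℝ (Fin k) := fun x => if x ∈ F then a⁻¹ • (f x - f x₀) else 0
    have hgd : ∀ x ∈ F, ∀ y ∈ F, dist (g x) (g y) = a⁻¹ * dist (f x) (f y) := by
      intro x hx y hy
      simp only [g, if_pos hx, if_pos hy]
      rw [dist_smul₀, Real.norm_of_nonneg (inv_pos.mpr ha).le, dist_sub_right]
    have hlow : ∀ x ∈ F, ∀ y ∈ F, dist x y ≤ dist (g x) (g y) := by
      intro x hx y hy
      rw [hgd x hx y hy, le_inv_mul_iff₀ ha]
      exact (hf x hx y hy).1
    have hup : ∀ x ∈ F, ∀ y ∈ F, dist (g x) (g y) ≤ D * dist x y := by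
      intro x hx y hy
      rw [hgd x hx y hy, inv_mul_le_iff₀ ha]
      calc dist (f x) (f y) ≤ D * a * dist x y := (hf x hx y hy).2
        _ = a * (D * dist x y) := by ring
    refine ⟨g, ?_, ?_⟩
    · intro x _
      by_cases hx : x ∈ F
      · have h0 : g x₀ = 0 := by simp [g, hx₀F]
        have := hup x hx x₀ hx₀F
        rw [h0, dist_zero_right] at this
        rw [mem_closedBall, dist_zero_right]
        refine this.trans ?_
        exact mul_le_mul_of_nonneg_right (le_abs_self D) dist_nonneg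
      · have h0 : g x = 0 := by simp [g, hx]
        rw [h0, mem_closedBall, dist_self]
        exact mul_nonneg (abs_nonneg _) dist_nonneg
    · simp only [mem_iInter]
      intro p hp
      have h1 : (p.1 : E) ∈ F := Finset.mem_insert_of_mem (Finset.mem_union_left _
        (Finset.mem_image.mpr ⟨p, hp, rfl⟩))
      have h2 : (p.2 : E) ∈ F := Finset.mem_insert_of_mem (Finset.mem_union_right _
        (Finset.mem_image.mpr ⟨p, hp, rfl⟩))
      exact ⟨hlow _ h1 _ h2, hup _ h1 _ h2⟩
  obtain ⟨g, _, hg⟩ := hS.inter_iInter_nonempty t ht hne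
  refine ⟨g, 1, one_pos, fun x hx y hy => ?_⟩
  have := mem_iInter.mp hg (⟨x, hx⟩, ⟨y, hy⟩)
  simpa [t] using this

/-- Gluing scale-separated rescaled copies on a geometric sequence along a line. -/
theorem glue {E : Type*} [NormedAddCommGroup E] [NormedSpace ℝ E] (v : E) (hv : ‖v‖ = 1) (L : ℕ)
    (X : ℕ → Set E) (hne : ∀ n, (X n).Nonempty) (hbdd : ∀ n, Bornology.IsBounded (X n))
    (hX : ∀ n, DoublingWith (X n) L) :
    ∃ Y : Set E, DoublingWith Y (L + 3) ∧ ∀ n k D, BiLipInto Y k D → BiLipInto (X n) k D := by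
  classical
  choose b hb using hne
  have hs : ∀ n, ∃ s : ℝ, 0 < s ∧ ∀ x ∈ X n, s * ‖x - b n‖ ≤ 1 := by
    intro n
    obtain ⟨R, hR⟩ := (hbdd n).subset_closedBall (b n)
    refine ⟨1 / (|R| + 1), by positivity, fun x hx => ?_⟩
    have h1 : ‖x - b n‖ ≤ R := by simpa [dist_eq_norm] using hR hx
    rw [div_mul_eq_mul_div, one_mul, div_le_one (by positivity)]
    linarith [le_abs_self R]
  choose s hs0 hs1 using hs
  let c : ℕ → E := fun n => ((16 : ℝ) ^ n) • v
  let T : ℕ → E → E := fun n x => c n + s n • (x - b n)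
  have hT : ∀ n x y, dist (T n x) (T n y) = s n * dist x y := by
    intro n x y
    have h1 : T n x - T n y = s n • (x - y) := by
      simp only [T, smul_sub]; abel
    rw [dist_eq_norm, h1, norm_smul, Real.norm_of_nonneg (hs0 n).le, dist_eq_norm]
  have hTc : ∀ n, ∀ x ∈ X n, dist (T n x) (c n) ≤ 1 := by
    intro n x hx
    have h1 : T n x - c n = s n • (x - b n) := by simp [T]
    rw [dist_eq_norm, h1, norm_smul, Real.norm_of_nonneg (hs0 n).le]
    exact hs1 n x hx
  have hcd : ∀ m n, dist (c m) (c n) = |(16 : ℝ) ^ m - 16 ^ n| := by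
    intro m n
    have h1 : c m - c n = ((16 : ℝ) ^ m - 16 ^ n) • v := by simp [c, sub_smul]
    rw [dist_eq_norm, h1, norm_smul, hv, mul_one, Real.norm_eq_abs]
  -- separation for m < n
  have hsep : ∀ m n, m < n → (15 / 16) * (16 : ℝ) ^ n ≤ dist (c m) (c n) := by
    intro m n hmn
    have h1 : (16 : ℝ) ^ (m + 1) ≤ 16 ^ n := pow_le_pow_right₀ (by norm_num) hmn
    have h2 : (16 : ℝ) ^ (m + 1) = 16 * 16 ^ m := by ring
    rw [hcd, abs_sub_comm]
    refine le_trans ?_ (le_abs_self _)
    nlinarith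
  have hup : ∀ m n, m ≤ n → dist (c m) (c n) ≤ (16 : ℝ) ^ n := by
    intro m n hmn
    have h1 : (16 : ℝ) ^ m ≤ 16 ^ n := pow_le_pow_right₀ (by norm_num) hmn
    have h2 : (0 : ℝ) < 16 ^ m := by positivity
    rw [hcd, abs_sub_comm, abs_of_nonneg (by linarith)]
    linarith
  have h16 : ∀ n : ℕ, (1 : ℝ) ≤ 16 ^ n := fun n => one_le_pow₀ (by norm_num)
  -- the glued set
  refine ⟨⋃ n, T n '' X n, ?_, ?_⟩
  · intro x hx r hr
    obtain ⟨n, u, hu, rfl⟩ := by simpa only [mem_iUnion] using hx
    by_cases hr8 : r < 8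
    · -- only one component is visible
      obtain ⟨F, hFX, hFc, hF⟩ := hX n u hu (r / s n) (div_pos hr (hs0 n))
      refine ⟨F.image (T n), ?_, ?_, ?_⟩
      · intro p hp
        simp only [Finset.coe_image, mem_image, Finset.mem_coe] at hp
        obtain ⟨y, hy, rfl⟩ := hp
        exact mem_iUnion.mpr ⟨n, y, hFX hy, rfl⟩
      · exact (Finset.card_image_le.trans hFc).trans (by omega)
      · rintro z ⟨hz, hzb⟩
        obtain ⟨m, w, hw, rfl⟩ := by simpa only [mem_iUnion] using hz
        rw [mem_closedBall] at hzb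
        have hmn : m = n := by
          by_contra hne
          have key : (15 : ℝ) ≤ dist (c m) (c n) := by
            rcases lt_or_gt_of_ne hne with h | h
            · have h1 := hsep m n h
              have h2 : (1 : ℝ) * 16 ≤ 16 ^ n := by
                have : (16 : ℝ) ^ 1 ≤ 16 ^ n := pow_le_pow_right₀ (by norm_num) (by omega)
                simpa using this
              linarith
            · have h1 := hsep n m h
              have h2 : (1 : ℝ) * 16 ≤ 16 ^ m := by
                have : (16 : ℝ) ^ 1 ≤ 16 ^ m := pow_le_pow_right₀ (by norm_num) (by omega)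
                simpa using this
              rw [dist_comm]
              linarith
          have h1 := dist_triangle4 (c m) (T m w) (T n u) (c n)
          have h2 := hTc m w hw
          have h3 := hTc n u hu
          rw [dist_comm] at h2
          linarith
        subst hmn
        have hw' : w ∈ X m ∩ closedBall u (r / s m) := by
          refine ⟨hw, ?_⟩
          rw [hT] at hzb
          rw [mem_closedBall, le_div_iff₀ (hs0 m)]
          linarith
        have h1 := hF hw'
        simp only [mem_iUnion, exists_prop, mem_closedBall] at h1 ⊢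
        obtain ⟨y, hy, hwy⟩ := h1
        refine ⟨T m y, Finset.mem_image.mpr ⟨y, hy, rfl⟩, ?_⟩
        rw [hT]
        have h2 := mul_le_mul_of_nonneg_left hwy (hs0 m).le
        calc s m * dist w y ≤ s m * (r / s m / 2) := h2
          _ = r / 2 := by field_simp [(hs0 m).ne']
    · -- large radius: three balls suffice
      push Not at hr8
      obtain ⟨m₁, h₁, h₂⟩ := exists_nat_pow_near (x := r / 4) (y := (16 : ℝ))
        (by linarith) (by norm_num)
      let p := T m₁ (b m₁)
      let q := T (m₁ + 1) (b (m₁ + 1))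
      refine ⟨{p, q, T n u}, ?_, ?_, ?_⟩
      · intro a ha
        simp only [Finset.coe_insert, Finset.coe_singleton, mem_insert_iff, mem_singleton_iff] at ha
        rcases ha with rfl | rfl | rfl
        · exact mem_iUnion.mpr ⟨m₁, _, hb _, rfl⟩
        · exact mem_iUnion.mpr ⟨m₁ + 1, _, hb _, rfl⟩
        · exact mem_iUnion.mpr ⟨n, _, hu, rfl⟩
      · exact (Finset.card_le_three).trans (by omega)
      · rintro z ⟨hz, hzb⟩
        obtain ⟨m, w, hw, rfl⟩ := by simpa only [mem_iUnion] using hz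
        rw [mem_closedBall] at hzb
        have hzc := hTc m w hw
        simp only [mem_iUnion, exists_prop, mem_closedBall]
        by_cases hm1 : m ≤ m₁
        · refine ⟨p, by simp, ?_⟩
          have h1 := dist_triangle4 (T m w) (c m) (c m₁) p
          have h2 := hup m m₁ hm1
          have h3 := hTc m₁ (b m₁) (hb _)
          rw [dist_comm] at h3
          simp only [p] at h1 ⊢
          linarith
        by_cases hm2 : m = m₁ + 1
        · subst hm2
          refine ⟨q, by simp, ?_⟩
          have h1 := dist_triangle (T (m₁ + 1) w) (c (m₁ + 1)) q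
          have h3 := hTc (m₁ + 1) (b (m₁ + 1)) (hb _)
          rw [dist_comm] at h3
          simp only [q] at h1 ⊢
          linarith
        by_cases hmn : m = n
        · subst hmn
          refine ⟨T m u, by simp, ?_⟩
          have h1 := dist_triangle (T m w) (c m) (T m u)
          have h3 := hTc m u hu
          rw [dist_comm] at h3
          linarith
        · exfalso
          have hbig : (15 / 16) * (16 : ℝ) ^ (m₁ + 2) ≤ dist (c m) (c n) := by
            rcases lt_or_gt_of_ne hmn with h | h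
            · have h1 := hsep m n h
              have h2 : (16 : ℝ) ^ (m₁ + 2) ≤ 16 ^ n := pow_le_pow_right₀ (by norm_num) (by omega)
              linarith
            · have h1 := hsep n m h
              have h2 : (16 : ℝ) ^ (m₁ + 2) ≤ 16 ^ m := pow_le_pow_right₀ (by norm_num) (by omega)
              rw [dist_comm]
              linarith
          have h3 : (16 : ℝ) ^ (m₁ + 2) = 16 * 16 ^ (m₁ + 1) := by ring
          have h4 := dist_triangle4 (c m) (T m w) (T n u) (c n)
          have h5 := hTc n u hu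
          have h6 : dist (c m) (T m w) ≤ 1 := by rw [dist_comm]; exact hzc
          rw [h3] at hbig
          linarith
  · rintro n k D ⟨f, a, ha, hf⟩
    refine ⟨f ∘ T n, a * s n, mul_pos ha (hs0 n), fun x hx y hy => ?_⟩
    have h1 := hf (T n x) (mem_iUnion.mpr ⟨n, x, hx, rfl⟩) (T n y) (mem_iUnion.mpr ⟨n, y, hy, rfl⟩)
    rw [hT] at h1
    constructor
    · calc a * s n * dist x y = a * (s n * dist x y) := by ring
        _ ≤ _ := h1.1
    · calc dist ((f ∘ T n) x) ((f ∘ T n) y) ≤ D * a * (s n * dist x y) := h1.2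
        _ = D * (a * s n) * dist x y := by ring

theorem finite_of_all {E : Type*} [NormedAddCommGroup E] [NormedSpace ℝ E] (v : E) (hv : ‖v‖ = 1)
    (hQ : ∀ X : Set E, (∃ L, DoublingWith X L) → ∃ k D, BiLipInto X k D) (L : ℕ) :
    ∃ k D, ∀ X : Finset E, DoublingWith (X : Set E) L → BiLipInto (X : Set E) k D := by
  classical
  by_contra hcon
  push Not at hcon
  choose Xf hXf hXn using hcon
  let X : ℕ → Set E := fun n => (Xf (Nat.unpair n).1 ((Nat.unpair n).2 : ℝ) : Set E)
  have hne : ∀ n, (X n).Nonempty := by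
    intro n
    by_contra hemp
    rw [not_nonempty_iff_eq_empty] at hemp
    apply hXn (Nat.unpair n).1 ((Nat.unpair n).2 : ℝ)
    refine ⟨fun _ => 0, 1, one_pos, fun x hx => ?_⟩
    have : x ∈ X n := hx
    rw [hemp] at this
    exact this.elim
  have hbdd : ∀ n, Bornology.IsBounded (X n) := fun n => (Finset.finite_toSet _).isBounded
  obtain ⟨Y, hY, hYX⟩ := glue v hv L X hne hbdd (fun n => hXf _ _)
  obtain ⟨k, D, hk⟩ := hQ Y ⟨L + 3, hY⟩
  have h1 := hYX (Nat.pair k ⌈D⌉₊) k _ (hk.mono (Nat.le_ceil D))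
  simp only [X, Nat.unpair_pair] at h1
  exact hXn k _ h1


/-- Transfer along an isometry: image. -/
theorem doubling_image {E E' : Type*} [PseudoMetricSpace E] [PseudoMetricSpace E'] {φ : E' → E}
    (hφ : Isometry φ) {X : Set E'} {L : ℕ} (h : DoublingWith X L) : DoublingWith (φ '' X) L := by
  classical
  rintro _ ⟨x, hx, rfl⟩ r hr
  obtain ⟨F, hFX, hFc, hF⟩ := h x hx r hr
  refine ⟨F.image φ, ?_, Finset.card_image_le.trans hFc, ?_⟩
  · intro p hp
    simp only [Finset.coe_image, mem_image, Finset.mem_coe] at hp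
    obtain ⟨y, hy, rfl⟩ := hp
    exact ⟨y, hFX hy, rfl⟩
  · rintro _ ⟨⟨w, hw, rfl⟩, hb⟩
    rw [mem_closedBall, hφ.dist_eq] at hb
    have h1 := hF ⟨hw, hb⟩
    simp only [mem_iUnion, exists_prop, mem_closedBall] at h1 ⊢
    obtain ⟨y, hy, hwy⟩ := h1
    exact ⟨φ y, Finset.mem_image.mpr ⟨y, hy, rfl⟩, by rwa [hφ.dist_eq]⟩

/-- Transfer along an isometry: preimage. -/
theorem doubling_of_image {E E' : Type*} [MetricSpace E] [MetricSpace E'] {φ : E' → E}
    (hφ : Isometry φ) {X : Set E'} {L : ℕ} (h : DoublingWith (φ '' X) L) : DoublingWith X L := by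
  classical
  intro x hx r hr
  obtain ⟨F, hFX, hFc, hF⟩ := h (φ x) ⟨x, hx, rfl⟩ r hr
  have h2 : ∀ p ∈ F, ∃ y ∈ X, φ y = p := fun p hp => hFX hp
  have : Nonempty E' := ⟨x⟩
  choose! g hgX hg using h2
  refine ⟨F.image g, ?_, Finset.card_image_le.trans hFc, ?_⟩
  · intro p hp
    simp only [Finset.coe_image, mem_image, Finset.mem_coe] at hp
    obtain ⟨y, hy, rfl⟩ := hp
    exact hgX y hy
  · rintro w ⟨hw, hb⟩
    rw [mem_closedBall] at hb
    have h1 := hF ⟨⟨w, hw, rfl⟩, by rw [mem_closedBall, hφ.dist_eq]; exact hb⟩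
    simp only [mem_iUnion, exists_prop, mem_closedBall] at h1 ⊢
    obtain ⟨y, hy, hwy⟩ := h1
    refine ⟨g y, Finset.mem_image.mpr ⟨y, hy, rfl⟩, ?_⟩
    rw [← hφ.dist_eq, hg y hy]
    exact hwy

theorem biLip_of_image {E E' : Type*} [PseudoMetricSpace E] [PseudoMetricSpace E'] {φ : E' → E}
    (hφ : Isometry φ) {X : Set E'} {k : ℕ} {D : ℝ} (h : BiLipInto (φ '' X) k D) :
    BiLipInto X k D := by
  obtain ⟨f, a, ha, hf⟩ := h
  refine ⟨f ∘ φ, a, ha, fun x hx y hy => ?_⟩
  have := hf (φ x) ⟨x, hx, rfl⟩ (φ y) ⟨y, hy, rfl⟩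
  rwa [hφ.dist_eq] at this

theorem biLip_image {E E' : Type*} [MetricSpace E] [MetricSpace E'] [Nonempty E'] {φ : E' → E}
    (hφ : Isometry φ) {X : Set E'} {k : ℕ} {D : ℝ} (h : BiLipInto X k D) :
    BiLipInto (φ '' X) k D := by
  obtain ⟨f, a, ha, hf⟩ := h
  have hinv : Function.LeftInverse (Function.invFun φ) φ := Function.leftInverse_invFun hφ.injective
  refine ⟨f ∘ Function.invFun φ, a, ha, ?_⟩
  rintro _ ⟨x, hx, rfl⟩ _ ⟨y, hy, rfl⟩
  simp only [Function.comp, hinv x, hinv y, hφ.dist_eq]
  exact hf x hx y hy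

/-- The real separable Hilbert space. -/
abbrev L2 := lp (fun _ : ℕ => ℝ) 2

noncomputable def unitVec (i : ℕ) : L2 := lp.single 2 i (1 : ℝ)

theorem orthonormal_unitVec : Orthonormal ℝ unitVec := by
  classical
  rw [orthonormal_iff_ite]
  intro i j
  simp only [unitVec]
  rw [lp.inner_single_left]
  by_cases h : i = j
  · subst h
    simp [lp.single_apply]
  · simp [lp.single_apply, h]

theorem exists_isometry (N : ℕ) : ∃ φ : EuclideanSpace ℝ (Fin N) → L2, Isometry φ := by
  classical
  let e : Fin N → L2 := fun i => unitVec i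
  have he : Orthonormal ℝ e :=
    orthonormal_unitVec.comp (fun i : Fin N => (i : ℕ)) Fin.val_injective
  let φ : EuclideanSpace ℝ (Fin N) → L2 := fun w => ∑ i, (w i) • e i
  refine ⟨φ, Isometry.of_dist_eq fun x y => ?_⟩
  have h1 : φ x - φ y = ∑ i, ((x - y) i) • e i := by
    simp only [φ, ← Finset.sum_sub_distrib, PiLp.sub_apply, sub_smul]
  rw [dist_eq_norm, dist_eq_norm, h1, EuclideanSpace.norm_eq]
  have h2 : ‖∑ i, ((x - y) i) • e i‖ ^ 2 = ∑ i, ‖(x - y) i‖ ^ 2 := by
    rw [← real_inner_self_eq_norm_sq, he.inner_sum]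
    simp [sq]
  rw [← h2, Real.sqrt_sq (norm_nonneg _)]

/-- **Q1**: every doubling subset of `ℓ₂` bi-Lipschitz embeds in some `ℝ^k`. -/
def Q1 : Prop := ∀ X : Set L2, (∃ L, DoublingWith X L) → ∃ k D, BiLipInto X k D

/-- Uniform form: `k` and `D` depend only on the doubling constant. -/
def UniformForm : Prop := ∀ L, ∃ k D, ∀ X : Set L2, DoublingWith X L → BiLipInto X k D

/-- Finite form: same, only for finite subsets of `ℓ₂`. -/
def FiniteForm : Prop :=
  ∀ L, ∃ k D, ∀ X : Finset L2, DoublingWith (X : Set L2) L → BiLipInto (X : Set L2) k D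

/-- Dimension reduction form: finite subsets of all `ℝ^N`, with `k, D` independent of `N`. -/
def DimensionFreeForm : Prop :=
  ∀ L, ∃ k D, ∀ N, ∀ X : Finset (EuclideanSpace ℝ (Fin N)),
    DoublingWith (X : Set (EuclideanSpace ℝ (Fin N))) L →
      BiLipInto (X : Set (EuclideanSpace ℝ (Fin N))) k D

theorem q1_imp_finite : Q1 → FiniteForm := by
  intro h L
  refine finite_of_all (unitVec 0) ?_ h L
  exact orthonormal_unitVec.1 0

theorem finite_imp_uniform : FiniteForm → UniformForm := by
  intro h L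
  obtain ⟨k, D, hk⟩ := h (L * L)
  refine ⟨k, D, fun X hX => biLip_of_finite (fun F hF => hk F (hX.subset hF))⟩

theorem uniform_imp_q1 : UniformForm → Q1 := by
  rintro h X ⟨L, hL⟩
  obtain ⟨k, D, hk⟩ := h L
  exact ⟨k, D, hk X hL⟩

theorem finite_imp_dimFree : FiniteForm → DimensionFreeForm := by
  classical
  intro h L
  obtain ⟨k, D, hk⟩ := h L
  refine ⟨k, D, fun N X hX => ?_⟩
  obtain ⟨φ, hφ⟩ := exists_isometry N
  have h1 := hk (X.image φ) (by rw [Finset.coe_image]; exact doubling_image hφ hX)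
  rw [Finset.coe_image] at h1
  exact biLip_of_image hφ h1

theorem dimFree_imp_finite : DimensionFreeForm → FiniteForm := by
  classical
  intro h L
  obtain ⟨k, D, hk⟩ := h L
  refine ⟨k, D, fun X hX => ?_⟩
  let S : Submodule ℝ L2 := Submodule.span ℝ (X : Set L2)
  have : FiniteDimensional ℝ S := FiniteDimensional.span_finset ℝ X
  let b := stdOrthonormalBasis ℝ S
  let φ : EuclideanSpace ℝ (Fin (Module.finrank ℝ S)) → L2 := fun w => ((b.repr.symm w : S) : L2)
  have hφ : Isometry φ := Isometry.of_dist_eq fun x y => by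
    simp only [φ]
    rw [← Subtype.dist_eq, b.repr.symm.dist_map]
  have hsurj : ∀ x ∈ X, ∃ w, φ w = x := by
    intro x hx
    refine ⟨b.repr ⟨x, Submodule.subset_span hx⟩, ?_⟩
    simp [φ]
  choose! g hg using hsurj
  let X' : Finset (EuclideanSpace ℝ (Fin (Module.finrank ℝ S))) := X.image g
  have hX' : φ '' (X' : Set _) = (X : Set L2) := by
    ext p
    constructor
    · rintro ⟨w, hw, rfl⟩
      simp only [X', Finset.coe_image, mem_image, Finset.mem_coe] at hw
      obtain ⟨x, hx, rfl⟩ := hw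
      rw [hg x hx]
      exact hx
    · intro hp
      exact ⟨g p, by simp only [X', Finset.coe_image]; exact ⟨p, hp, rfl⟩, hg p hp⟩
  have h1 : DoublingWith (X' : Set _) L := doubling_of_image hφ (by rw [hX']; exact hX)
  have h2 := hk _ X' h1
  have h3 := biLip_image hφ h2
  rwa [hX'] at h3

/-- **Theorem.** The Lang-Plaut question Q1 for `ℓ₂` is equivalent to its stronger uniform form
(`k, D` bounded in terms of the doubling constant alone), to the same uniform statement for finite
subsets of `ℓ₂`, and to uniform dimension reduction for finite subsets of all Euclidean spaces. -/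
theorem result : (Q1 ↔ UniformForm) ∧ (Q1 ↔ FiniteForm) ∧ (Q1 ↔ DimensionFreeForm) := by
  have a := q1_imp_finite
  have b := finite_imp_uniform
  have c := uniform_imp_q1
  have d := finite_imp_dimFree
  have e := dimFree_imp_finite
  exact ⟨⟨b ∘ a, c⟩, ⟨a, c ∘ b⟩, ⟨d ∘ a, c ∘ b ∘ e⟩⟩

end Vale.Agent.Results.P208.UniformFormEquivalent
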